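import Vale.Agent.P097.H402.Rat.Defs

/-! # P097 / RAT-C: Bernstein inequality for the Taylor coefficients of the pencil Hamiltonian -/

set_option linter.all false

open Complex Metric Filter Topology Set Polynomial
open scoped ComplexConjugate

namespace Vale.Agent.P097.H543.Rat

open Vale.Agent.P097.TA Vale.Agent.P097.H202 Vale.Agent.P097.H402.Rat

/-- maximum principle inside the disc -/
theorem poly_le_inside {P : ℂ[X]} {A : ℝ} (h : ∀ z : ℂ, ‖z‖ = 1 → ‖P.eval z‖ ≤ A) {z : ℂ}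
    (hz : ‖z‖ ≤ 1) : ‖P.eval z‖ ≤ A := by
  have hd : DiffContOnCl ℂ (fun z => P.eval z) (ball (0 : ℂ) 1) :=
    P.differentiable.diffContOnCl
  have h1 := Complex.norm_le_of_forall_mem_frontier_norm_le (isBounded_ball) hd
    (C := A) (by
      intro w hw
      rw [frontier_ball _ one_ne_zero, mem_sphere_zero_iff_norm] at hw
      exact h w hw) (z := z) (by
      rw [closure_ball _ one_ne_zero, mem_closedBall_zero_iff]
      exact hz)
  exact h1

/-- Bernstein -/
theorem bernstein {P : ℂ[X]} {A : ℝ} {n : ℕ} (hn : P.natDegree ≤ n)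
    (h : ∀ z : ℂ, ‖z‖ = 1 → ‖P.eval z‖ ≤ A) (z : ℂ) : ‖P.eval z‖ ≤ A * max 1 ‖z‖ ^ n := by
  have hA : 0 ≤ A := (norm_nonneg _).trans (h 1 (by simp))
  rcases le_or_gt ‖z‖ 1 with h1 | h1
  · refine (poly_le_inside h h1).trans ?_
    rw [max_eq_left h1]
    simp
  · have hz : z ≠ 0 := by
      rintro rfl
      simp at h1
      linarith
    have key : ∀ w : ℂ, w ≠ 0 → (P.reflect n).eval w⁻¹ * w ^ n = P.eval w := by
      intro w hw
      have : Invertible w := invertibleOfNonzero hw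
      have h2 := Polynomial.eval₂_reflect_mul_pow (RingHom.id ℂ) w n P hn
      rw [invOf_eq_inv] at h2
      simpa only [Polynomial.eval₂_id] using h2
    have h2 : ∀ w : ℂ, ‖w‖ = 1 → ‖(P.reflect n).eval w‖ ≤ A := by
      intro w hw
      have hw0 : w ≠ 0 := by
        rintro rfl
        simp at hw
      have h3 := key w⁻¹ (inv_ne_zero hw0)
      rw [inv_inv] at h3
      have h4 := h w⁻¹ (by rw [norm_inv, hw, inv_one])
      rw [← h3, norm_mul, norm_pow, norm_inv, hw] at h4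
      simpa using h4
    have h3 := poly_le_inside h2 (z := z⁻¹) (by
      rw [norm_inv]
      exact inv_le_one_of_one_le₀ h1.le)
    rw [← key z hz, norm_mul, norm_pow, max_eq_right h1.le]
    gcongr

/-- `D` is bounded on the unit circle etc.: `‖P(z)‖ ≤ K max(1,‖z‖)^n` -/
theorem poly_bound (P : ℂ[X]) {n : ℕ} (hn : P.natDegree ≤ n) :
    ∃ K : ℝ, 0 < K ∧ ∀ z : ℂ, ‖P.eval z‖ ≤ K * max 1 ‖z‖ ^ n := by
  obtain ⟨K, hK⟩ := (isCompact_sphere (0 : ℂ) 1).exists_bound_of_continuousOn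
    (f := fun z => P.eval z) (P.continuous.continuousOn)
  refine ⟨max K 1, by positivity, fun z => ?_⟩
  refine bernstein hn ?_ z
  intro w hw
  exact (hK w (by rw [mem_sphere_zero_iff_norm]; exact hw)).trans (le_max_left _ _)

/-- Cauchy estimate for the Taylor coefficients at real points -/
theorem co_bound {R : ℂ → ℂ} {δ : ℝ} {E ξ X : ℂ → ℂ → ℂ} (P : Pen R δ E ξ X) :
    ∃ B : ℝ, 0 < B ∧ ∀ (m : ℕ) (x : ℝ), ‖co E m x‖ ≤ B * (2 / δ) ^ m := by
  have hδ := P.hδ
  have hK : IsCompact ((Icc (0 : ℝ) (2 * Real.pi)) ×ˢ (closedBall (0 : ℂ) (δ / 2))) :=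
    isCompact_Icc.prod (isCompact_closedBall _ _)
  have hmem : ∀ (x : ℝ) (y : ℂ), ‖y‖ < δ → ((x : ℂ), y) ∈ BX δ := by
    intro x y hy
    refine ⟨?_, hy⟩
    show |((x : ℂ)).im| < δ
    simpa using hδ
  have hcont : ContinuousOn (fun p : ℝ × ℂ => E (p.1 : ℂ) p.2)
      ((Icc (0 : ℝ) (2 * Real.pi)) ×ˢ (closedBall (0 : ℂ) (δ / 2))) := by
    have h1 : ContinuousOn (fun p : ℂ × ℂ => E p.1 p.2) (BX δ) := P.jE.continuousOn
    refine h1.comp (f := fun p : ℝ × ℂ => ((p.1 : ℂ), p.2)) (by fun_prop) ?_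
    rintro ⟨x, y⟩ ⟨-, hy⟩
    refine hmem x y ?_
    have : ‖y‖ ≤ δ / 2 := by simpa using hy
    linarith
  obtain ⟨B, hB⟩ := hK.exists_bound_of_continuousOn hcont
  have hper : ∀ (x : ℝ) (y : ℂ), ‖y‖ < δ → ∀ n : ℤ,
      E ((x + n * (2 * Real.pi) : ℝ) : ℂ) y = E x y := by
    intro x y hy n
    induction n using Int.induction_on with
    | zero => simp
    | succ n ih =>
      have h1 := P.Ep ((x + (n : ℤ) * (2 * Real.pi) : ℝ) : ℂ) y (hmem _ y hy)
      rw [← ih, ← h1]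
      congr 1
      push_cast
      ring
    | pred n ih =>
      have h1 := P.Ep ((x + (-(n : ℤ) - 1 : ℤ) * (2 * Real.pi) : ℝ) : ℂ) y (hmem _ y hy)
      rw [← ih, ← h1]
      congr 1
      push_cast
      ring
  have hbd : ∀ (x : ℝ) (y : ℂ), ‖y‖ ≤ δ / 2 → ‖E x y‖ ≤ max B 1 := by
    intro x y hy
    have hpi : (0 : ℝ) < 2 * Real.pi := by positivity
    obtain ⟨n, hn⟩ : ∃ n : ℤ, x + n * (2 * Real.pi) ∈ Icc 0 (2 * Real.pi) := by
      obtain ⟨n, hn, -⟩ := existsUnique_add_zsmul_mem_Ico hpi x 0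
      refine ⟨n, ?_⟩
      rw [zsmul_eq_mul] at hn
      exact ⟨hn.1, by linarith [hn.2]⟩
    rw [← hper x y (by linarith) n]
    exact (hB (x + n * (2 * Real.pi), y) ⟨hn, by simpa using hy⟩).trans (le_max_left _ _)
  refine ⟨max B 1, by positivity, fun m x => ?_⟩
  have hdc : DiffContOnCl ℂ (fun y => E (x : ℂ) y) (ball (0 : ℂ) (δ / 2)) := by
    apply DifferentiableOn.diffContOnCl
    rw [closure_ball _ (by positivity)]
    refine P.jE.differentiableOn_e (U := closedBall (0 : ℂ) (δ / 2)) ?_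
    intro y hy
    refine hmem x y ?_
    have : ‖y‖ ≤ δ / 2 := by simpa using hy
    linarith
  have h1 := Complex.norm_iteratedDeriv_le_of_forall_mem_sphere_norm_le m (R := δ / 2)
    (by positivity) hdc (C := max B 1) (by
      intro y hy
      refine hbd x y ?_
      rw [mem_sphere_zero_iff_norm] at hy
      exact hy.le)
  rw [co, norm_div]
  have h2 : ‖((m.factorial : ℕ) : ℂ)‖ = m.factorial := by simp
  rw [h2, div_le_iff₀ (by positivity)]
  refine h1.trans (le_of_eq ?_)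
  rw [div_pow, div_pow]
  field_simp

theorem pc : PC := by
  intro R δ E ξ X N D Q P hR hQ
  obtain ⟨B, hB, hco⟩ := co_bound P
  have hδ := P.hδ
  obtain ⟨K, hK, hKD⟩ := poly_bound D (le_refl _)
  set K' : ℝ := max K 1 with hK'
  set B' : ℝ := max B 1 with hB'
  have hK1 : 1 ≤ K' := le_max_right _ _
  have hB1 : 1 ≤ B' := le_max_right _ _
  refine ⟨B' * (2 / δ) * K', by positivity, fun m z => ?_⟩
  rcases lt_or_ge m 3 with hm | hm
  · rw [hQ.Q2 m hm]
    simp only [Polynomial.eval_zero, norm_zero]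
    positivity
  refine bernstein (hQ.deg m) ?_ z
  intro w hw
  -- a real point
  obtain ⟨x, hx⟩ : ∃ x : ℝ, w = ez x := by
    refine ⟨Complex.arg w, ?_⟩
    have h1 := Complex.norm_mul_exp_arg_mul_I w
    rw [hw, ofReal_one, one_mul] at h1
    rw [ez, mul_comm]
    exact h1.symm
  rw [hx] at hw ⊢
  rw [← hQ.eq m x, norm_mul, norm_pow]
  have h1 := hKD (ez x)
  rw [hw, max_self, one_pow, mul_one] at h1
  have h2 : ‖D.eval (ez x)‖ ≤ K' := h1.trans (le_max_left _ _)
  calc ‖co E m x‖ * ‖D.eval (ez x)‖ ^ (m - 3)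
      ≤ (B * (2 / δ) ^ m) * K' ^ (m - 3) := by
        gcongr
        exact hco m x
    _ ≤ (B' ^ m * (2 / δ) ^ m) * K' ^ m := by
        have h3 : B ≤ B' ^ m := by
          calc B ≤ B' := le_max_left _ _
            _ = B' ^ 1 := (pow_one _).symm
            _ ≤ B' ^ m := pow_le_pow_right₀ hB1 (by omega)
        have h4 : K' ^ (m - 3) ≤ K' ^ m := pow_le_pow_right₀ hK1 (by omega)
        gcongr
    _ = (B' * (2 / δ) * K') ^ m := by
        rw [mul_pow, mul_pow]

end Vale.Agent.P097.H543.Rat
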